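import Vale.Agent.P181.H303.Spec

/-!
P181, row PM: the quantitative black box from rows V, TI, AR, KEY.
-/

set_option autoImplicit false

namespace Vale.Agent.P181.H698

open Finset Vale.Agent.P181.H303

section AHtools
variable {W : Type*} [AddCommGroup W] [Module ℂ W]

theorem mem_AH_of_sum {G : Set W} {c : ℝ} {ι : Type*} [Fintype ι] (w : ι → ℂ) (g : ι → W)
    (hg : ∀ i, g i ∈ G) (hc : ∑ i, ‖w i‖ ≤ c) : ∑ i, w i • g i ∈ AH G c := by
  classical
  let e := (Fintype.equivFin ι).symm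
  refine ⟨Fintype.card ι, fun i => w (e i), fun i => g (e i), fun i => hg _, ?_, ?_⟩
  · rw [Equiv.sum_comp e (fun i => ‖w i‖)]
    exact hc
  · rw [Equiv.sum_comp e (fun i => w i • g i)]

theorem AH_self {G : Set W} {x : W} (hx : x ∈ G) : x ∈ AH G 1 :=
  ⟨1, fun _ => 1, fun _ => x, fun _ => hx, by simp, by simp⟩

theorem AH_mono {G G' : Set W} {c c' : ℝ} (h : G ⊆ G') (hc : c ≤ c') {x : W} (hx : x ∈ AH G c) :
    x ∈ AH G' c' := by
  obtain ⟨m, w, g, hg, hw, rfl⟩ := hx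
  exact ⟨m, w, g, fun i => h (hg i), hw.trans hc, rfl⟩

theorem AH_bind {G G' : Set W} {c c' : ℝ} (hc' : 0 ≤ c') {x : W} (hx : x ∈ AH G c)
    (h : ∀ g ∈ G, g ∈ AH G' c') : x ∈ AH G' (c * c') := by
  obtain ⟨m, w, g, hg, hw, rfl⟩ := hx
  choose m' w' g' hg' hw' he using fun i => h (g i) (hg i)
  have key : ∑ i, w i • g i =
      ∑ p : (Σ i : Fin m, Fin (m' i)), (w p.1 * w' p.1 p.2) • g' p.1 p.2 := by
    rw [Fintype.sum_sigma]
    refine Finset.sum_congr rfl fun i _ => ?_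
    conv_lhs => rw [he i]
    rw [Finset.smul_sum]
    refine Finset.sum_congr rfl fun j _ => ?_
    rw [mul_smul]
  rw [key]
  refine mem_AH_of_sum _ _ (fun p => hg' _ _) ?_
  rw [Fintype.sum_sigma]
  calc ∑ i, ∑ j, ‖w i * w' i j‖ = ∑ i, ‖w i‖ * ∑ j, ‖w' i j‖ := by
        simp only [norm_mul, Finset.mul_sum]
    _ ≤ ∑ i, ‖w i‖ * c' :=
        Finset.sum_le_sum fun i _ => mul_le_mul_of_nonneg_left (hw' i) (norm_nonneg _)
    _ = (∑ i, ‖w i‖) * c' := by rw [Finset.sum_mul]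
    _ ≤ c * c' := mul_le_mul_of_nonneg_right hw hc'

end AHtools

section ring
variable {A : Type*} [CommRing A] {s : ℕ}

theorem AH_mul [Algebra ℂ A] {G G' G'' : Set A} {x x' : A} (hx : x ∈ AH G 1) (hx' : x' ∈ AH G' 1)
    (h : ∀ g ∈ G, ∀ g' ∈ G', g * g' ∈ G'') : x * x' ∈ AH G'' 1 := by
  obtain ⟨m, w, g, hg, hw, rfl⟩ := hx
  obtain ⟨m', w', g', hg', hw', rfl⟩ := hx'
  have key : (∑ i, w i • g i) * (∑ i, w' i • g' i) =
      ∑ p : Fin m × Fin m', (w p.1 * w' p.2) • (g p.1 * g' p.2) := by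
    rw [Finset.sum_mul_sum, Fintype.sum_prod_type]
    refine Finset.sum_congr rfl fun i _ => Finset.sum_congr rfl fun j _ => ?_
    rw [smul_mul_smul_comm]
  rw [key]
  refine mem_AH_of_sum _ _ (fun p => h _ (hg _) _ (hg' _)) ?_
  rw [Fintype.sum_prod_type]
  calc ∑ i, ∑ j, ‖w i * w' j‖ = (∑ i, ‖w i‖) * ∑ j, ‖w' j‖ := by
        rw [Finset.sum_mul_sum]
        simp only [norm_mul]
    _ ≤ 1 * 1 := mul_le_mul hw hw' (Finset.sum_nonneg fun _ _ => norm_nonneg _) zero_le_one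
    _ = 1 := one_mul _

theorem Mono_mul {y : Fin s → A} {m m' : ℕ} {x x' : A} (hx : x ∈ Mono y m)
    (hx' : x' ∈ Mono y m') : x * x' ∈ Mono y (m + m') := by
  obtain ⟨α, h, rfl⟩ := hx
  obtain ⟨β, h', rfl⟩ := hx'
  refine ⟨fun i => α i + β i, by rw [Finset.sum_add_distrib, h, h'], ?_⟩
  simp only [pow_add, Finset.prod_mul_distrib]

theorem one_mem_Mono (y : Fin s → A) : (1 : A) ∈ Mono y 0 := ⟨fun _ => 0, by simp, by simp⟩

theorem pow_mem_Mono (y : Fin s → A) (i : Fin s) (m : ℕ) : y i ^ m ∈ Mono y m := by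
  classical
  refine ⟨Pi.single i m, by simp, ?_⟩
  rw [Finset.prod_eq_single i]
  · simp
  · intro j _ hj
    simp [Pi.single_eq_of_ne hj]
  · intro h
    exact absurd (mem_univ i) h

theorem Mono_pow {y : Fin s → A} {g m : ℕ} {x : A} (hx : x ∈ Mono (fun i => y i ^ g) m) :
    x ∈ Mono y (g * m) := by
  obtain ⟨α, h, rfl⟩ := hx
  refine ⟨fun i => g * α i, by rw [← Finset.mul_sum, h], ?_⟩
  simp only [pow_mul]

theorem H_mul [Algebra ℂ A] {y : Fin s → A} {m m' : ℕ} {x x' : A} (hx : x ∈ AH (Mono y m) 1)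
    (hx' : x' ∈ AH (Mono y m') 1) : x * x' ∈ AH (Mono y (m + m')) 1 :=
  AH_mul hx hx' fun _ hg _ hg' => Mono_mul hg hg'

theorem H_pow [Algebra ℂ A] {y : Fin s → A} {m : ℕ} {x : A} (hx : x ∈ AH (Mono y m) 1) (n : ℕ) :
    x ^ n ∈ AH (Mono y (m * n)) 1 := by
  induction n with
  | zero => simpa using AH_self (one_mem_Mono y)
  | succ n ih =>
    rw [pow_succ, Nat.mul_succ]
    exact H_mul ih hx

theorem H_prod [Algebra ℂ A] {y : Fin s → A} {τ : ℕ} {l : Fin τ → A} {m : ℕ}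
    (hl : ∀ t, l t ∈ AH (Mono y m) 1) (μ : Fin τ → ℕ) :
    ∏ t, l t ^ μ t ∈ AH (Mono y (m * ∑ t, μ t)) 1 := by
  classical
  have : ∀ S : Finset (Fin τ), ∏ t ∈ S, l t ^ μ t ∈ AH (Mono y (m * ∑ t ∈ S, μ t)) 1 := by
    intro S
    induction S using Finset.induction_on with
    | empty => simpa using AH_self (one_mem_Mono y)
    | insert t S ht ih =>
      rw [Finset.prod_insert ht, Finset.sum_insert ht, Nat.mul_add]
      exact H_mul (H_pow (hl t) _) ih
  exact this univ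

theorem H_lin [Algebra ℂ A] {y : Fin s → A} {c : Fin s → ℂ} (hc : ∑ j, ‖c j‖ ≤ 1) :
    ∑ j, c j • y j ∈ AH (Mono y 1) 1 :=
  mem_AH_of_sum c y (fun j => by simpa using pow_mem_Mono y j 1) hc

theorem split_prod {τ : ℕ} (l : Fin τ → A) (μ α β ρ : Fin τ → ℕ) (p q : ℕ)
    (h : ∀ t, μ t = p * α t + q * β t + ρ t) :
    ∏ t, l t ^ μ t = (∏ t, l t ^ α t) ^ p * (∏ t, l t ^ β t) ^ q * ∏ t, l t ^ ρ t := by
  rw [← Finset.prod_pow, ← Finset.prod_pow, ← Finset.prod_mul_distrib, ← Finset.prod_mul_distrib]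
  refine Finset.prod_congr rfl fun t _ => ?_
  rw [h t, pow_add, pow_add, mul_comm p, mul_comm q, pow_mul, pow_mul]

end ring

/-! ### numerics -/

theorem vv_le (s : ℕ) (hs : 1 ≤ s) : (vv s : ℝ) ≤ Real.exp (12 * (s : ℝ) ^ 3) := by
  have h1 : TT s ≤ s * s := by
    unfold TT
    obtain ⟨k, rfl⟩ := Nat.exists_eq_add_of_le hs
    have : 1 + k - 1 = k := by omega
    rw [this]
    nlinarith
  have h2 : s * TT s ≤ s ^ 3 := by
    calc s * TT s ≤ s * (s * s) := Nat.mul_le_mul_left _ h1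
      _ = s ^ 3 := by ring
  have h3 : vv s ≤ (s ^ 3) ^ (4 * (s * s)) := by
    unfold vv
    exact Nat.pow_le_pow_left h2 _
  have h4 : (s : ℝ) ≤ Real.exp s := by
    have := Real.add_one_le_exp (s : ℝ)
    linarith
  have h5 : ((s : ℝ) ^ 3) ^ (4 * (s * s)) ≤ Real.exp (12 * (s : ℝ) ^ 3) := by
    rw [← pow_mul]
    calc (s : ℝ) ^ (3 * (4 * (s * s))) ≤ (Real.exp s) ^ (3 * (4 * (s * s))) :=
          pow_le_pow_left₀ (Nat.cast_nonneg _) h4 _
      _ = Real.exp (12 * (s : ℝ) ^ 3) := by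
          rw [← Real.exp_nat_mul]
          congr 1
          push_cast
          ring
  calc (vv s : ℝ) ≤ (((s ^ 3) ^ (4 * (s * s)) : ℕ) : ℝ) := by exact_mod_cast h3
    _ = ((s : ℝ) ^ 3) ^ (4 * (s * s)) := by push_cast; rfl
    _ ≤ _ := h5

theorem const_le (s q N N2 : ℕ) (hs : 1 ≤ s) (hq : 1 ≤ q) (hN : N ≤ 8 * q ^ 2 * s ^ 5)
    (hN2 : N2 ≤ 16 * q ^ 2 * s ^ 5) :
    (vv s : ℝ) ^ (s * (s * s) * N) * ((vv s : ℝ) ^ (s * (s * s) * N2) *
      ((s : ℝ) ^ s * ((s : ℝ) + 1) ^ (s * q))) ≤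
      Real.exp (((300 : ℕ) : ℝ) * ((q : ℝ) ^ 2 * (s : ℝ) ^ 12)) := by
  have hs1 : (1 : ℝ) ≤ s := by exact_mod_cast hs
  have hq1 : (1 : ℝ) ≤ q := by exact_mod_cast hq
  have hv := vv_le s hs
  have hv0 : (0 : ℝ) ≤ vv s := Nat.cast_nonneg _
  have h1 : ∀ n : ℕ, (vv s : ℝ) ^ (s * (s * s) * n) ≤ Real.exp (12 * (s : ℝ) ^ 6 * n) := by
    intro n
    calc (vv s : ℝ) ^ (s * (s * s) * n) ≤ (Real.exp (12 * (s : ℝ) ^ 3)) ^ (s * (s * s) * n) :=
          pow_le_pow_left₀ hv0 hv _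
      _ = _ := by
          rw [← Real.exp_nat_mul]
          congr 1
          push_cast
          ring
  have h4 : (s : ℝ) ≤ Real.exp s := by
    have := Real.add_one_le_exp (s : ℝ)
    linarith
  have h5 : (s : ℝ) ^ s ≤ Real.exp ((s : ℝ) * s) := by
    calc (s : ℝ) ^ s ≤ (Real.exp s) ^ s := pow_le_pow_left₀ (Nat.cast_nonneg _) h4 _
      _ = _ := by rw [← Real.exp_nat_mul]
  have h6 : ((s : ℝ) + 1) ^ (s * q) ≤ Real.exp ((s : ℝ) * q * s) := by
    calc ((s : ℝ) + 1) ^ (s * q) ≤ (Real.exp s) ^ (s * q) :=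
          pow_le_pow_left₀ (by positivity) (Real.add_one_le_exp _) _
      _ = _ := by
          rw [← Real.exp_nat_mul]
          congr 1
          push_cast
          ring
  have hNr : (N : ℝ) ≤ 8 * (q : ℝ) ^ 2 * (s : ℝ) ^ 5 := by exact_mod_cast hN
  have hN2r : (N2 : ℝ) ≤ 16 * (q : ℝ) ^ 2 * (s : ℝ) ^ 5 := by exact_mod_cast hN2
  calc _ ≤ Real.exp (12 * (s : ℝ) ^ 6 * N) * (Real.exp (12 * (s : ℝ) ^ 6 * N2) *
        (Real.exp ((s : ℝ) * s) * Real.exp ((s : ℝ) * q * s))) := by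
        gcongr
        · exact h1 N
        · exact h1 N2
    _ = Real.exp (12 * (s : ℝ) ^ 6 * N + (12 * (s : ℝ) ^ 6 * N2 + ((s : ℝ) * s + (s : ℝ) * q * s))) := by
        rw [Real.exp_add, Real.exp_add, Real.exp_add]
    _ ≤ _ := by
        apply Real.exp_le_exp.2
        have e1 : 12 * (s : ℝ) ^ 6 * N ≤ 96 * ((q : ℝ) ^ 2 * (s : ℝ) ^ 12) := by
          calc 12 * (s : ℝ) ^ 6 * N ≤ 12 * (s : ℝ) ^ 6 * (8 * (q : ℝ) ^ 2 * (s : ℝ) ^ 5) := by gcongr
            _ = 96 * ((q : ℝ) ^ 2 * (s : ℝ) ^ 11) := by ring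
            _ ≤ _ := by
                gcongr
                norm_num
        have e2 : 12 * (s : ℝ) ^ 6 * N2 ≤ 192 * ((q : ℝ) ^ 2 * (s : ℝ) ^ 12) := by
          calc 12 * (s : ℝ) ^ 6 * N2 ≤ 12 * (s : ℝ) ^ 6 * (16 * (q : ℝ) ^ 2 * (s : ℝ) ^ 5) := by
                gcongr
            _ = 192 * ((q : ℝ) ^ 2 * (s : ℝ) ^ 11) := by ring
            _ ≤ _ := by
                gcongr
                norm_num
        have e3 : (s : ℝ) * s ≤ (q : ℝ) ^ 2 * (s : ℝ) ^ 12 := by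
          calc (s : ℝ) * s = 1 * (s : ℝ) ^ 2 := by ring
            _ ≤ (q : ℝ) ^ 2 * (s : ℝ) ^ 12 := by
                gcongr
                · exact one_le_pow₀ hq1
                · norm_num
        have e4 : (s : ℝ) * q * s ≤ (q : ℝ) ^ 2 * (s : ℝ) ^ 12 := by
          calc (s : ℝ) * q * s = (q : ℝ) ^ 1 * (s : ℝ) ^ 2 := by ring
            _ ≤ (q : ℝ) ^ 2 * (s : ℝ) ^ 12 := by
                gcongr
                · norm_num
                · norm_num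
        have e5 : 0 ≤ (q : ℝ) ^ 2 * (s : ℝ) ^ 12 := by positivity
        push_cast
        linarith

/-- Row PM. -/
theorem rowPM (hV : RowV) (hTI : RowTI) (hAR : RowAR) (hKEY : RowKEY) : RowPM := by
  refine ⟨300, ?_⟩
  intro s q a hs hq ha A W _ _ _ _ T hT y
  obtain ⟨L, hL1, hL2⟩ := hV s hs
  obtain ⟨e, he⟩ : ∃ e, e = (s - 1) * (s - 1) := ⟨_, rfl⟩
  obtain ⟨k, hk⟩ : ∃ k, k = 8 * q * s ^ 5 := ⟨_, rfl⟩
  obtain ⟨d, hd⟩ : ∃ d, d = e + TT s * q := ⟨_, rfl⟩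
  -- sizes
  have hTT : TT s ≤ s * s := by
    unfold TT
    obtain ⟨j, rfl⟩ := Nat.exists_eq_add_of_le hs
    have : 1 + j - 1 = j := by omega
    rw [this]
    nlinarith
  have hee : e ≤ s * s := by
    rw [he]
    exact Nat.mul_le_mul (Nat.sub_le _ _) (Nat.sub_le _ _)
  have hs2 : 1 ≤ s * s := Nat.mul_pos hs hs
  have hd2 : d ≤ 2 * (s * s * q) := by
    rw [hd]
    have h1 : e ≤ s * s * q := hee.trans (Nat.le_mul_of_pos_right _ hq)
    have h2 : TT s * q ≤ s * s * q := Nat.mul_le_mul_right _ hTT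
    omega
  have hk0 : 1 ≤ k := by
    rw [hk]
    have : 1 ≤ s ^ 5 := Nat.one_le_pow _ _ hs
    nlinarith [Nat.mul_pos hq this]
  have hs35 : s ^ 3 ≤ s ^ 5 := Nat.pow_le_pow_right hs (by norm_num)
  have hs25 : s ^ 2 ≤ s ^ 5 := Nat.pow_le_pow_right hs (by norm_num)
  have hsd : s * d ≤ k := by
    rw [hk]
    calc s * d ≤ s * (2 * (s * s * q)) := Nat.mul_le_mul_left _ hd2
      _ = 2 * q * s ^ 3 := by ring
      _ ≤ 8 * q * s ^ 5 := Nat.mul_le_mul (by omega) hs35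
  have hbig : (d + TT s) * (s * q) + e ≤ q * k := by
    have h1 : d + TT s ≤ 3 * (s * s * q) := by
      have : TT s ≤ s * s * q := hTT.trans (Nat.le_mul_of_pos_right _ hq)
      omega
    have h2 : (d + TT s) * (s * q) ≤ 3 * (q ^ 2 * s ^ 3) := by
      calc (d + TT s) * (s * q) ≤ 3 * (s * s * q) * (s * q) := Nat.mul_le_mul_right _ h1
        _ = 3 * (q ^ 2 * s ^ 3) := by ring
    have h3 : q ^ 2 * s ^ 3 ≤ q ^ 2 * s ^ 5 := Nat.mul_le_mul_left _ hs35
    have h4 : e ≤ q ^ 2 * s ^ 5 := by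
      calc e ≤ s * s := hee
        _ = 1 * s ^ 2 := by ring
        _ ≤ q ^ 2 * s ^ 5 := Nat.mul_le_mul (Nat.one_le_pow _ _ hq) hs25
    have h5 : q * k = 8 * (q ^ 2 * s ^ 5) := by rw [hk]; ring
    omega
  have hka : k ≤ a := by
    have : s ^ 5 ≤ s ^ 6 := Nat.pow_le_pow_right hs (by norm_num)
    calc k = 8 * (q * s ^ 5) := by rw [hk]; ring
      _ ≤ 300 * (q * s ^ 6) := Nat.mul_le_mul (by norm_num) (Nat.mul_le_mul_left _ this)
      _ ≤ a := ha
  -- the splitting of `a`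
  obtain ⟨g, k2, hak, hk2, hk2'⟩ : ∃ g k2, a = g * k + k2 ∧ k ≤ k2 ∧ k2 ≤ 2 * k := by
    refine ⟨(a - k) / k, (a - k) % k + k, ?_, by omega, ?_⟩
    · have := Nat.div_add_mod (a - k) k
      have h2 : k * ((a - k) / k) = (a - k) / k * k := Nat.mul_comm _ _
      omega
    · have := Nat.mod_lt (a - k) hk0
      omega
  obtain ⟨N, hN⟩ : ∃ N, e + N = q * k := ⟨q * k - e, by omega⟩
  have hqk : q * k ≤ q * k2 := Nat.mul_le_mul_left _ hk2
  obtain ⟨N2, hN2⟩ : ∃ N2, e + N2 = q * k2 := ⟨q * k2 - e, by omega⟩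
  have hNle : N ≤ 8 * q ^ 2 * s ^ 5 := by
    have : q * k = 8 * q ^ 2 * s ^ 5 := by rw [hk]; ring
    omega
  have hN2le : N2 ≤ 16 * q ^ 2 * s ^ 5 := by
    have h1 : q * k2 ≤ q * (2 * k) := Nat.mul_le_mul_left _ hk2'
    have : q * (2 * k) = 16 * q ^ 2 * s ^ 5 := by rw [hk]; ring
    omega
  -- the target
  set G : Set W := {x | ∃ f ∈ AH (Mono y a) 1, x = T (fun _ => f ^ q)} with hG
  refine AH_mono (le_refl G) (const_le s q N N2 hs hq hNle hN2le) ?_
  -- the first extraction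
  set z : Fin s → A := fun i => y i ^ g with hz
  have hlz : ∀ t, ∑ j, L t j • z j ∈ AH (Mono y g) 1 := by
    intro t
    refine AH_mono ?_ le_rfl (H_lin (y := z) (hL1 t))
    intro x hx
    have := Mono_pow hx
    rwa [mul_one] at this
  have hly : ∀ t, ∑ j, L t j • y j ∈ AH (Mono y 1) 1 := fun t => H_lin (hL1 t)
  have hT1 := hTI s hs L hL1 hL2 A W (T.compLinearMap fun i => LinearMap.mulRight ℂ (y i ^ (q * k2)))
    z N (fun i => z i ^ (q * k)) (fun i => by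
      have := pow_mem_Mono z i (q * k)
      rwa [← hN, he] at this ⊢)
  have hrow : (T.compLinearMap fun i => LinearMap.mulRight ℂ (y i ^ (q * k2)))
      (fun i => z i ^ (q * k)) = T (fun i => y i ^ (q * a)) := by
    simp only [MultilinearMap.compLinearMap_apply, LinearMap.mulRight_apply]
    congr 1
    funext i
    rw [hz, hak]
    ring
  rw [hrow] at hT1
  refine AH_bind (by positivity) hT1 ?_
  rintro _ ⟨μ, Q, hμ, hQ, rfl⟩
  -- the second extraction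
  set R : Fin s → A := fun i => (∏ t, (∑ j, L t j • z j) ^ μ t) * Q i with hR
  have hT2 := hTI s hs L hL1 hL2 A W (T.compLinearMap fun i => LinearMap.mulLeft ℂ (R i))
    y N2 (fun i => y i ^ (q * k2)) (fun i => by
      have := pow_mem_Mono y i (q * k2)
      rwa [← hN2, he] at this ⊢)
  have hrow2 : (T.compLinearMap fun i => LinearMap.mulLeft ℂ (R i))
      (fun i => y i ^ (q * k2)) =
      (T.compLinearMap fun i => LinearMap.mulRight ℂ (y i ^ (q * k2))) R := by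
    simp only [MultilinearMap.compLinearMap_apply, LinearMap.mulRight_apply,
      LinearMap.mulLeft_apply]
  rw [hrow2] at hT2
  refine AH_bind (by positivity) hT2 ?_
  rintro _ ⟨μ', Q', hμ', hQ', rfl⟩
  -- arithmetic of exponents
  obtain ⟨α, β, ρ, h1, h2, h3, h4⟩ := hAR s q d k (TT s) hs hq (by omega) hsd μ (by omega)
    (by omega)
  obtain ⟨α', β', ρ', h1', h2', h3', h4'⟩ := hAR s q d k2 (TT s) hs hq (by omega)
    (hsd.trans hk2) μ' (by omega) (by omega)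
  set lz : Fin (TT s) → A := fun t => ∑ j, L t j • z j with hlz'
  set ly : Fin (TT s) → A := fun t => ∑ j, L t j • y j with hly'
  have key := hKEY s q (g * d + d) (g * ∑ t, β t + ∑ t, β' t) hs hq A W T hT y
    ((∏ t, lz t ^ α t) * ∏ t, ly t ^ α' t) (by
      have := H_mul (H_prod hlz α) (H_prod hly α')
      rwa [h2, h2', one_mul] at this)
    ((∏ t, lz t ^ β t) * ∏ t, ly t ^ β' t) (by
      have := H_mul (H_prod hlz β) (H_prod hly β')
      rwa [one_mul] at this)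
    (fun i => ((∏ t, lz t ^ ρ t) * Q i) * ((∏ t, ly t ^ ρ' t) * Q' i)) (by
      intro i
      have hQi : Q i ∈ AH (Mono y (g * e)) 1 := by
        refine AH_self (Mono_pow ?_)
        rw [he]
        exact hQ i
      have hQi' : Q' i ∈ AH (Mono y e) 1 := by
        refine AH_self ?_
        rw [he]
        exact hQ' i
      have := H_mul (H_mul (H_prod hlz ρ) hQi) (H_mul (H_prod hly ρ') hQi')
      have hdeg : g * ∑ t, ρ t + g * e + (1 * ∑ t, ρ' t + e) = g * d + d := by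
        rw [← Nat.mul_add, one_mul, he, h4, h4']
      rwa [hdeg] at this)
  have hdeg : s * (g * d + d) + (g * ∑ t, β t + ∑ t, β' t) = a := by
    rw [hak, ← h3, ← h3']
    ring
  rw [hdeg] at key
  have hrow3 : (T.compLinearMap fun i => LinearMap.mulLeft ℂ (R i))
      (fun i => (∏ t, (∑ j, L t j • y j) ^ μ' t) * Q' i) =
      T (fun i => ((∏ t, lz t ^ β t) * ∏ t, ly t ^ β' t) ^ q *
        (((∏ t, lz t ^ α t) * ∏ t, ly t ^ α' t) ^ (s * q - 1) *
          (((∏ t, lz t ^ ρ t) * Q i) * ((∏ t, ly t ^ ρ' t) * Q' i)))) := by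
    rw [MultilinearMap.compLinearMap_apply]
    congr 1
    funext i
    rw [LinearMap.mulLeft_apply]
    have hs' := split_prod ly μ' α' β' ρ' (s * q - 1) q h1'
    have hs'' := split_prod lz μ α β ρ (s * q - 1) q h1
    have hRi : R i = (∏ t, lz t ^ μ t) * Q i := rfl
    change R i * ((∏ t, ly t ^ μ' t) * Q' i) = _
    rw [hRi, hs', hs'']
    ring
  rw [hrow3]
  exact key

end Vale.Agent.P181.H698
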